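/-
Ball faces (helper82).

A pair `(w, J)` of a unit vector `w` and a subspace `J` is a ball face if `‖w + x‖ = max 1 ‖x‖` for `x`
in `J` and every unit `z` with `‖z + w‖ = 2` lies in `w + J`: the set of unit vectors cofacial with `w`
is exactly `w + ball J`.  Example: `w` a rank one partial isometry in the compact operators on a
Hilbert space, `J` the operators vanishing on its support and with range orthogonal to its range.

For a ball face and a surjective sphere isometry `f` the radial extension of `f` is linear on `J`.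
(1) For a unit `a` in `J` the vector `y = f w + f a` is unit with `‖y + f w‖ = ‖y + f a‖ = 2` (oddness,
doubling), so `g y = w + Ξ a` with `Ξ a` in `J`, `Ξ` is an isometry of the sphere of `J` and `‖a + Ξ a‖ = 2`;
Theorem A gives `Ξ a = a`.  (2) The same with `f w + r • f a`, on the flat segment from `f w` to
`f w + f a`, gives `f (w + r • a) = f w + r • f a`.  (3) For `x₁`, `x₂` in the ball of `J` a functional
norming `f (w + x₁ / 2) + f (w + x₂)` is one on `f w`, `f (w + x₁)`, `f (w + x₂)`, so the midpoint of the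
last two is in the image of `w + ball J`: the range of the radial extension on `J` is a subspace, and
Mazur-Ulam gives linearity.

If the subspaces of ball faces come arbitrarily close to any two vectors, the radial extension is
additive on the whole space: `f` is the restriction of a linear isometry.
-/
import Vale.Agent.Lib.P084.Defs
import Vale.Agent.Lib.P084.Inf.Cofacial

namespace Vale.Agent.Lib.P084.BallFace

open Vale.Agent.Lib.P084.UC Vale.Agent.Lib.P084.Inf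
open Metric

variable {X Y : Type*} [NormedAddCommGroup X] [NormedSpace ℝ X] [NormedAddCommGroup Y]
  [NormedSpace ℝ Y]

/-- Radial extension. -/
noncomputable def rad (f : X → Y) (x : X) : Y := ‖x‖ • f (‖x‖⁻¹ • x)

theorem rad_zero (f : X → Y) : rad f (0 : X) = 0 := by simp [rad]

theorem rad_unit (f : X → Y) {x : X} (hx : ‖x‖ = 1) : rad f x = f x := by
  simp [rad, hx]

theorem rad_pos (f : X → Y) {s : ℝ} (hs : 0 < s) (x : X) : rad f (s • x) = s • rad f x := by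
  by_cases hx : x = 0
  · subst hx; simp [rad_zero]
  have hn : ‖s • x‖ = s * ‖x‖ := by rw [norm_smul, Real.norm_eq_abs, abs_of_pos hs]
  have hx' : ‖x‖ ≠ 0 := norm_ne_zero_iff.mpr hx
  have e : ‖s • x‖⁻¹ • (s • x) = ‖x‖⁻¹ • x := by
    rw [hn, smul_smul, mul_inv_rev]
    congr 1
    field_simp
  unfold rad
  rw [e, hn, mul_smul]

section

variable {f : X → Y} {g : Y → X} {w : X} {J : Submodule ℝ X}

theorem rad_neg (hf : IsSphereIso f) (x : X) : rad f (-x) = -rad f x := by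
  by_cases h0 : x = 0
  · subst h0; simp [rad_zero]
  have hw : ‖‖x‖⁻¹ • x‖ = 1 := norm_inv_smul h0
  have e : ‖x‖⁻¹ • (-x) = -(‖x‖⁻¹ • x) := smul_neg _ _
  have h := odd_of_isSphereIso hf hw
  simp only [rad, norm_neg]
  rw [e, h, smul_neg]

theorem rad_smul (hf : IsSphereIso f) (s : ℝ) (x : X) : rad f (s • x) = s • rad f x := by
  rcases lt_trichotomy s 0 with hs | rfl | hs
  · have e : s • x = -((-s) • x) := by simp
    rw [e, rad_neg hf, rad_pos f (by linarith) x]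
    simp
  · simp [rad_zero]
  · exact rad_pos f hs x

theorem rad_norm (hf : IsSphereIso f) (x : X) : ‖rad f x‖ = ‖x‖ := by
  by_cases h0 : x = 0
  · subst h0; simp [rad_zero]
  simp only [rad]
  rw [norm_smul, hf.norm_eq _ (norm_inv_smul h0), norm_norm, mul_one]

theorem rad_lip (hf : IsSphereIso f) (y y' : X) : ‖rad f y - rad f y'‖ ≤ 3 * ‖y - y'‖ := by
  have hnn : |‖y‖ - ‖y'‖| ≤ ‖y - y'‖ := abs_norm_sub_norm_le y y'
  by_cases hy : y = 0
  · subst hy
    rw [rad_zero, zero_sub, norm_neg, zero_sub, norm_neg, rad_norm hf]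
    nlinarith [norm_nonneg y']
  by_cases hy' : y' = 0
  · subst hy'
    rw [rad_zero, sub_zero, sub_zero, rad_norm hf]
    nlinarith [norm_nonneg y]
  set a := ‖y‖⁻¹ • y with ha
  set a' := ‖y'‖⁻¹ • y' with ha'
  have ha1 : ‖a‖ = 1 := norm_inv_smul hy
  have ha1' : ‖a'‖ = 1 := norm_inv_smul hy'
  have hne : ‖y‖ ≠ 0 := norm_ne_zero_iff.mpr hy
  have hne' : ‖y'‖ ≠ 0 := norm_ne_zero_iff.mpr hy'
  have hya : y = ‖y‖ • a := by
    rw [ha, smul_smul, mul_inv_cancel₀ hne, one_smul]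
  have hya' : y' = ‖y'‖ • a' := by
    rw [ha', smul_smul, mul_inv_cancel₀ hne', one_smul]
  have hsplit : rad f y - rad f y' = ‖y'‖ • (f a - f a') + (‖y‖ - ‖y'‖) • f a := by
    simp only [rad, ← ha, ← ha']
    simp only [smul_sub, sub_smul]
    abel
  have h1 : ‖‖y'‖ • (a - a')‖ ≤ 2 * ‖y - y'‖ := by
    have e : ‖y'‖ • (a - a') = (y - y') + (‖y'‖ - ‖y‖) • a := by
      rw [smul_sub, sub_smul, ← hya, ← hya']
      abel
    rw [e]
    refine (norm_add_le _ _).trans ?_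
    rw [norm_smul, ha1, mul_one, Real.norm_eq_abs, abs_sub_comm]
    linarith
  rw [hsplit]
  refine (norm_add_le _ _).trans ?_
  rw [norm_smul, norm_smul, hf.norm_eq _ ha1, mul_one, norm_norm, Real.norm_eq_abs,
    hf.iso _ _ ha1 ha1']
  rw [norm_smul, norm_norm] at h1
  linarith

/-- Norm of a sum of images. -/
theorem norm_f_add (hf : IsSphereIso f) {a b : X} (ha : ‖a‖ = 1) (hb : ‖b‖ = 1) :
    ‖f a + f b‖ = ‖a + b‖ := by
  have h := hf.iso a (-b) ha (by rw [norm_neg]; exact hb)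
  rw [odd_of_isSphereIso hf hb, sub_neg_eq_add, sub_neg_eq_add] at h
  exact h

/-- Doubling in the form `‖2 f a + f b‖ = ‖2 a + b‖`. -/
theorem norm_two_add (hf : IsSphereIso f) {a b : X} (ha : ‖a‖ = 1) (hb : ‖b‖ = 1)
    (hab : ‖a + b‖ = 1) : ‖f a + f b + f a‖ = ‖a + b + a‖ := by
  have hb' : ‖-b‖ = 1 := by rw [norm_neg]; exact hb
  have hyx : ‖-b - a‖ = 1 := by
    have : -b - a = -(a + b) := by abel
    rw [this, norm_neg]; exact hab
  have hd := hf.doubling ha hb' hyx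
  rw [odd_of_isSphereIso hf hb] at hd
  have e1 : f a + f b + f a = (2 : ℝ) • (f a - (1 / 2 : ℝ) • -f b) := by module
  have e2 : a + b + a = (2 : ℝ) • (a - (1 / 2 : ℝ) • -b) := by module
  rw [e1, e2, norm_smul, norm_smul, hd]

theorem IsBallFace.norm_le (B : IsBallFace w J) {x : X} (hx : x ∈ J) (h1 : ‖x‖ ≤ 1) :
    ‖w + x‖ = 1 := by
  rw [B.orth x hx, max_eq_left h1]

/-- The basic use of Theorem A. -/
theorem sect (hf : IsSphereIso f) (hg1 : ∀ y : Y, ‖y‖ = 1 → ‖g y‖ = 1)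
    (hg2 : ∀ y : Y, ‖y‖ = 1 → f (g y) = y) (B : IsBallFace w J) {y : J → Y} {r : ℝ} (hr : 0 < r)
    (hu : ∀ a : J, ‖a‖ = 1 → ‖y a‖ = 1)
    (hc : ∀ a : J, ‖a‖ = 1 → ‖y a + f w‖ = 2)
    (hn : ∀ a b : J, ‖a‖ = 1 → ‖b‖ = 1 → ‖y a - y b‖ ≤ r * ‖a - b‖)
    (hnorm : ∀ a : J, ‖a‖ = 1 → ‖g (y a) - w‖ = r)
    (hcof : ∀ a : J, ‖a‖ = 1 → ‖(a : X) + r⁻¹ • (g (y a) - w)‖ = 2)
    {a : J} (ha : ‖a‖ = 1) : g (y a) = w + r • (a : X) := by
  classical
  have hw' : ‖-w‖ = 1 := by rw [norm_neg]; exact B.norm_w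
  have hmem : ∀ a : J, ‖a‖ = 1 → g (y a) - w ∈ J := fun a ha => by
    refine B.face _ (hg1 _ (hu a ha)) ?_
    have h := hf.iso (g (y a)) (-w) (hg1 _ (hu a ha)) hw'
    rw [hg2 _ (hu a ha), odd_of_isSphereIso hf B.norm_w, sub_neg_eq_add, sub_neg_eq_add,
      hc a ha] at h
    exact h.symm
  let Ξ : J → J := fun a => if h : ‖a‖ = 1 then r⁻¹ • (⟨g (y a) - w, hmem a h⟩ : J) else 0
  have hΞ : ∀ (a : J) (_ : ‖a‖ = 1), ((Ξ a : J) : X) = r⁻¹ • (g (y a) - w) := by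
    intro a h
    simp only [Ξ]
    rw [dif_pos h]
    rfl
  have hr' : r ≠ 0 := hr.ne'
  have h1 : ∀ a : J, ‖a‖ = 1 → ‖Ξ a‖ = 1 := by
    intro a h
    rw [Submodule.coe_norm, hΞ a h, norm_smul, hnorm a h, norm_inv, Real.norm_eq_abs,
      abs_of_pos hr, inv_mul_cancel₀ hr']
  have h2 : ∀ a b : J, ‖a‖ = 1 → ‖b‖ = 1 → ‖Ξ a - Ξ b‖ ≤ ‖a - b‖ := by
    intro a b h h'
    have e : ((Ξ a - Ξ b : J) : X) = r⁻¹ • (g (y a) - g (y b)) := by
      rw [Submodule.coe_sub, hΞ a h, hΞ b h']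
      module
    rw [Submodule.coe_norm (Ξ a - Ξ b), e, norm_smul, norm_inv, Real.norm_eq_abs, abs_of_pos hr,
      ← hf.iso _ _ (hg1 _ (hu a h)) (hg1 _ (hu b h')), hg2 _ (hu a h), hg2 _ (hu b h'),
      inv_mul_le_iff₀ hr]
    exact hn a b h h'
  have h3 : ∀ a : J, ‖a‖ = 1 → ‖a + Ξ a‖ = 2 := by
    intro a h
    rw [Submodule.coe_norm, Submodule.coe_add, hΞ a h]
    exact hcof a h
  have key := eq_self_of_cofacial h1 h2 h3 ha
  have e := hΞ a ha
  rw [key] at e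
  rw [e, smul_smul, mul_inv_cancel₀ hr', one_smul]
  abel

/-- Step 1: additivity at orthogonal unit vectors. -/
theorem add_unit (hf : IsSphereIso f) (hg1 : ∀ y : Y, ‖y‖ = 1 → ‖g y‖ = 1)
    (hg2 : ∀ y : Y, ‖y‖ = 1 → f (g y) = y) (B : IsBallFace w J) {a : J} (ha : ‖a‖ = 1) :
    f (w + a) = f w + f a := by
  have hw := B.norm_w
  have hunit : ∀ a : J, ‖a‖ = 1 → ‖(a : X)‖ = 1 := fun a h => h
  have hsum : ∀ a : J, ‖a‖ = 1 → ‖w + (a : X)‖ = 1 := fun a h =>
    B.norm_le a.2 (hunit a h).le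
  have hu : ∀ a : J, ‖a‖ = 1 → ‖f w + f (a : X)‖ = 1 := fun a h => by
    rw [norm_f_add hf hw (hunit a h)]; exact hsum a h
  have hg := sect (y := fun a : J => f w + f (a : X)) (r := 1) hf hg1 hg2 B one_pos hu
    (fun a h => by
      have e := norm_two_add hf hw (hunit a h) (hsum a h)
      have e1 : f w + f (a : X) + f w = f w + f (a : X) + f w := rfl
      rw [e1, e]
      have e2 : w + (a : X) + w = (2 : ℝ) • (w + (1 / 2 : ℝ) • (a : X)) := by module
      rw [e2, norm_smul, B.norm_le (J.smul_mem _ a.2) (by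
        rw [norm_smul, hunit a h]; norm_num)]
      norm_num)
    (fun a b h h' => by
      simp only [add_sub_add_left_eq_sub, one_mul]
      rw [hf.iso _ _ (hunit a h) (hunit b h')]
      rfl)
    (fun a h => by
      rw [← hf.iso _ _ (hg1 _ (hu a h)) hw, hg2 _ (hu a h), add_sub_cancel_left,
        hf.norm_eq _ (hunit a h)])
    (fun a h => by
      have hz := hg1 _ (hu a h)
      set z := g (f w + f (a : X)) with hzdef
      have h5 : ‖z + a‖ = 2 := by
        rw [← norm_f_add hf hz (hunit a h), hg2 _ (hu a h)]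
        have e := norm_two_add hf (hunit a h) hw (by rw [add_comm]; exact hsum a h)
        have e1 : f w + f (a : X) + f (a : X) = f (a : X) + f w + f (a : X) := by abel
        rw [e1, e]
        have e2 : (a : X) + w + a = w + (2 : ℝ) • (a : X) := by module
        rw [e2, B.orth _ (J.smul_mem _ a.2), norm_smul, hunit a h]
        norm_num
      have hm : z - w ∈ J := by
        refine B.face _ hz ?_
        have h8 := hf.iso z (-w) hz (by rw [norm_neg]; exact hw)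
        rw [hzdef, hg2 _ (hu a h), odd_of_isSphereIso hf hw, sub_neg_eq_add, sub_neg_eq_add] at h8
        rw [hzdef, ← h8]
        have e := norm_two_add hf hw (hunit a h) (hsum a h)
        rw [e]
        have e2 : w + (a : X) + w = (2 : ℝ) • (w + (1 / 2 : ℝ) • (a : X)) := by module
        rw [e2, norm_smul, B.norm_le (J.smul_mem _ a.2) (by
          rw [norm_smul, hunit a h]; norm_num)]
        norm_num
      have e3 : z + a = w + ((z - w) + a) := by abel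
      rw [e3, B.orth _ (J.add_mem hm a.2)] at h5
      have h6 : ‖(z - w) + (a : X)‖ = 2 := by
        rcases max_choice (1 : ℝ) ‖(z - w) + (a : X)‖ with h7 | h7
        · rw [h7] at h5; norm_num at h5
        · rw [h7] at h5; exact h5
      rw [inv_one, one_smul, add_comm]
      exact h6)
    ha
  have h2 := hg2 _ (hu a ha)
  rw [hg, one_smul] at h2
  exact h2

/-- A cofaciality computation. -/
theorem norm_add_inv_smul {a ξ : X} {r : ℝ} (hr : 0 < r) (ha : ‖a‖ = 1) (hξ : ‖ξ‖ = r)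
    (had : ‖a - ξ‖ = 1 - r) : ‖a + r⁻¹ • ξ‖ = 2 := by
  have hne : a ≠ 0 := by
    intro h; rw [h, norm_zero] at ha; norm_num at ha
  obtain ⟨χ, hχ1, hχ2⟩ := exists_dual_vector ℝ a (norm_ne_zero_iff.mpr hne)
  have hχa : χ a = 1 := by
    have : χ a = ((‖a‖ : ℝ)) := by exact_mod_cast hχ2
    rw [this, ha]
  have hle : ∀ v : X, χ v ≤ ‖v‖ := fun v => by
    have h1 := χ.le_opNorm v
    rw [hχ1, one_mul, Real.norm_eq_abs] at h1
    exact (le_abs_self _).trans h1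
  have h1 := hle (a - ξ)
  rw [map_sub, hχa, had] at h1
  have h2 : r ≤ χ ξ := by linarith
  have hn1 : ‖r⁻¹ • ξ‖ = 1 := by
    rw [norm_smul, hξ, norm_inv, Real.norm_eq_abs, abs_of_pos hr, inv_mul_cancel₀ hr.ne']
  apply le_antisymm
  · calc _ ≤ ‖a‖ + ‖r⁻¹ • ξ‖ := norm_add_le _ _
      _ = 2 := by rw [ha, hn1]; norm_num
  · have h3 := hle (a + r⁻¹ • ξ)
    rw [map_add, map_smul, hχa, smul_eq_mul] at h3
    have h4 : 1 ≤ r⁻¹ * χ ξ := by
      rw [← inv_mul_cancel₀ hr.ne']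
      exact mul_le_mul_of_nonneg_left h2 (by positivity)
    linarith

/-- Step 2: the radial formula. -/
theorem radial (hf : IsSphereIso f) (hg1 : ∀ y : Y, ‖y‖ = 1 → ‖g y‖ = 1)
    (hg2 : ∀ y : Y, ‖y‖ = 1 → f (g y) = y) (B : IsBallFace w J) {a : J} (ha : ‖a‖ = 1) {r : ℝ}
    (hr : 0 < r) (hr1 : r ≤ 1) : f (w + r • (a : X)) = f w + r • f (a : X) := by
  rcases hr1.eq_or_lt with rfl | hr2
  · rw [one_smul, one_smul]
    exact add_unit hf hg1 hg2 B ha
  have hw := B.norm_w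
  have hunit : ∀ a : J, ‖a‖ = 1 → ‖(a : X)‖ = 1 := fun a h => h
  have hsum : ∀ a : J, ‖a‖ = 1 → ‖w + (a : X)‖ = 1 := fun a h =>
    B.norm_le a.2 (hunit a h).le
  have hadd : ∀ a : J, ‖a‖ = 1 → f (w + a) = f w + f a := fun a h => add_unit hf hg1 hg2 B h
  have h2 : ∀ a : J, ‖a‖ = 1 → ‖f w + (f w + f (a : X))‖ = 2 := fun a h => by
    have e := norm_two_add hf hw (hunit a h) (hsum a h)
    have e1 : f w + (f w + f (a : X)) = f w + f (a : X) + f w := by abel
    rw [e1, e]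
    have e2 : w + (a : X) + w = (2 : ℝ) • (w + (1 / 2 : ℝ) • (a : X)) := by module
    rw [e2, norm_smul, B.norm_le (J.smul_mem _ a.2) (by
      rw [norm_smul, hunit a h]; norm_num)]
    norm_num
  have hq : ∀ a : J, ‖a‖ = 1 → ‖f w + f (a : X)‖ = 1 := fun a h => by
    rw [← hadd a h]; exact hf.norm_eq _ (hsum a h)
  have hp := hf.norm_eq w hw
  have hu : ∀ a : J, ‖a‖ = 1 → ‖f w + r • f (a : X)‖ = 1 := fun a h => by
    have := norm_comb_eq_one hp (hq a h) (h2 a h) (s := 1 - r) (t := r) (by linarith) hr.le (by ring)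
    have e : (1 - r) • f w + r • (f w + f (a : X)) = f w + r • f (a : X) := by module
    rwa [e] at this
  have hc : ∀ a : J, ‖a‖ = 1 → ‖f w + r • f (a : X) + f w‖ = 2 := fun a h => by
    have := norm_comb_eq_one hp (hq a h) (h2 a h) (s := 1 - r / 2) (t := r / 2) (by linarith)
      (by linarith) (by ring)
    have e : f w + r • f (a : X) + f w =
        (2 : ℝ) • ((1 - r / 2) • f w + (r / 2) • (f w + f (a : X))) := by module
    rw [e, norm_smul, this]
    norm_num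
  have hnm : ∀ a : J, ‖a‖ = 1 → ‖g (f w + r • f (a : X)) - w‖ = r := fun a h => by
    rw [← hf.iso _ _ (hg1 _ (hu a h)) hw, hg2 _ (hu a h), add_sub_cancel_left, norm_smul,
      hf.norm_eq _ (hunit a h), mul_one, Real.norm_eq_abs, abs_of_pos hr]
  have hg := sect (y := fun a : J => f w + r • f (a : X)) (r := r) hf hg1 hg2 B hr hu hc
    (fun a b h h' => by
      have e : f w + r • f (a : X) - (f w + r • f (b : X)) = r • (f (a : X) - f (b : X)) := by
        module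
      simp only [e]
      rw [norm_smul, hf.iso _ _ (hunit a h) (hunit b h'), Real.norm_eq_abs, abs_of_pos hr]
      rfl)
    hnm
    (fun a h => by
      refine norm_add_inv_smul hr (hunit a h) (hnm a h) ?_
      have hz := hg1 _ (hu a h)
      have hwa := hsum a h
      have e1 := hf.iso _ _ hz hwa
      rw [hg2 _ (hu a h), hadd a h] at e1
      have e2 : (a : X) - (g (f w + r • f (a : X)) - w) =
          -(g (f w + r • f (a : X)) - (w + (a : X))) := by abel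
      rw [e2, norm_neg, ← e1]
      have e3 : f w + r • f (a : X) - (f w + f (a : X)) = (r - 1) • f (a : X) := by module
      rw [e3, norm_smul, hf.norm_eq _ (hunit a h), mul_one, Real.norm_eq_abs, abs_of_neg (by linarith)]
      ring)
    ha
  have h3 := hg2 _ (hu a ha)
  rw [hg] at h3
  exact h3

/-- The formula on the ball of `J`. -/
theorem f_eq (hf : IsSphereIso f) (hg1 : ∀ y : Y, ‖y‖ = 1 → ‖g y‖ = 1)
    (hg2 : ∀ y : Y, ‖y‖ = 1 → f (g y) = y) (B : IsBallFace w J) {x : X} (hx : x ∈ J)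
    (h1 : ‖x‖ ≤ 1) : f (w + x) = f w + rad f x := by
  by_cases h0 : x = 0
  · subst h0; simp [rad_zero]
  have hu : ‖‖x‖⁻¹ • x‖ = 1 := norm_inv_smul h0
  have hmem : ‖x‖⁻¹ • x ∈ J := J.smul_mem _ hx
  have h := radial hf hg1 hg2 B (a := ⟨_, hmem⟩) hu (r := ‖x‖)
    (norm_pos_iff.mpr h0) h1
  have e : ‖x‖ • ‖x‖⁻¹ • x = x := by
    rw [smul_smul, mul_inv_cancel₀ (norm_ne_zero_iff.mpr h0), one_smul]
  simp only [e] at h
  exact h

theorem rad_iso_ball (hf : IsSphereIso f) (hg1 : ∀ y : Y, ‖y‖ = 1 → ‖g y‖ = 1)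
    (hg2 : ∀ y : Y, ‖y‖ = 1 → f (g y) = y) (B : IsBallFace w J) {x x' : X} (hx : x ∈ J)
    (hx' : x' ∈ J) (h1 : ‖x‖ ≤ 1) (h1' : ‖x'‖ ≤ 1) : ‖rad f x - rad f x'‖ = ‖x - x'‖ := by
  have e := hf.iso _ _ (B.norm_le hx h1) (B.norm_le hx' h1')
  rw [f_eq hf hg1 hg2 B hx h1, f_eq hf hg1 hg2 B hx' h1', add_sub_add_left_eq_sub,
    add_sub_add_left_eq_sub] at e
  exact e

theorem scale_bound (x x' : X) :
    ‖(1 + ‖x‖ + ‖x'‖)⁻¹ • x‖ ≤ 1 ∧ ‖(1 + ‖x‖ + ‖x'‖)⁻¹ • x'‖ ≤ 1 := by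
  have h0 : 0 < 1 + ‖x‖ + ‖x'‖ := by positivity
  constructor
  · rw [norm_smul, norm_inv, Real.norm_eq_abs, abs_of_pos h0, inv_mul_le_iff₀ h0]
    have := norm_nonneg x'
    linarith
  · rw [norm_smul, norm_inv, Real.norm_eq_abs, abs_of_pos h0, inv_mul_le_iff₀ h0]
    have := norm_nonneg x
    linarith

theorem rad_iso (hf : IsSphereIso f) (hg1 : ∀ y : Y, ‖y‖ = 1 → ‖g y‖ = 1)
    (hg2 : ∀ y : Y, ‖y‖ = 1 → f (g y) = y) (B : IsBallFace w J) {x x' : X} (hx : x ∈ J)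
    (hx' : x' ∈ J) : ‖rad f x - rad f x'‖ = ‖x - x'‖ := by
  set s : ℝ := (1 + ‖x‖ + ‖x'‖)⁻¹ with hs
  have h0 : 0 < s := by positivity
  obtain ⟨h1, h2⟩ := scale_bound x x'
  have e := rad_iso_ball hf hg1 hg2 B (J.smul_mem s hx) (J.smul_mem s hx') h1 h2
  rw [rad_pos f h0, rad_pos f h0] at e
  have e3 : s • rad f x - s • rad f x' = s • (rad f x - rad f x') := by module
  have e4 : s • x - s • x' = s • (x - x') := by module
  rw [e3, e4, norm_smul, norm_smul, Real.norm_eq_abs, abs_of_pos h0] at e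
  exact mul_left_cancel₀ h0.ne' e

/-- Step 3: midpoints. -/
theorem rad_mid (hf : IsSphereIso f) (hg1 : ∀ y : Y, ‖y‖ = 1 → ‖g y‖ = 1)
    (hg2 : ∀ y : Y, ‖y‖ = 1 → f (g y) = y) (B : IsBallFace w J) {x₁ x₂ : X} (h₁ : x₁ ∈ J)
    (h₂ : x₂ ∈ J) (hn₁ : ‖x₁‖ ≤ 1) (hn₂ : ‖x₂‖ ≤ 1) :
    ∃ ξ ∈ J, (1 / 2 : ℝ) • (rad f x₁ + rad f x₂) = rad f ξ := by
  have hw := B.norm_w
  set m : Y := (1 / 2 : ℝ) • (rad f x₁ + rad f x₂) with hm
  have hf1 := f_eq hf hg1 hg2 B h₁ hn₁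
  have hf2 := f_eq hf hg1 hg2 B h₂ hn₂
  have hhalfmem : (1 / 2 : ℝ) • x₁ ∈ J := J.smul_mem _ h₁
  have hhalfn : ‖(1 / 2 : ℝ) • x₁‖ ≤ 1 := by
    rw [norm_smul]; norm_num; linarith
  have hf3 := f_eq hf hg1 hg2 B hhalfmem hhalfn
  rw [rad_pos f (by norm_num : (0 : ℝ) < 1 / 2)] at hf3
  have hp := hf.norm_eq _ (B.norm_le h₁ hn₁)
  have hq := hf.norm_eq _ (B.norm_le h₂ hn₂)
  have hh := hf.norm_eq _ (B.norm_le hhalfmem hhalfn)
  have hW := hf.norm_eq _ hw
  -- the sum has norm two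
  have hsum : ‖f (w + (1 / 2 : ℝ) • x₁) + f (w + x₂)‖ = 2 := by
    rw [norm_f_add hf (B.norm_le hhalfmem hhalfn) (B.norm_le h₂ hn₂)]
    have e : w + (1 / 2 : ℝ) • x₁ + (w + x₂) =
        (2 : ℝ) • (w + ((1 / 4 : ℝ) • x₁ + (1 / 2 : ℝ) • x₂)) := by module
    rw [e, norm_smul, B.norm_le (J.add_mem (J.smul_mem _ h₁) (J.smul_mem _ h₂))]
    · norm_num
    · calc _ ≤ ‖(1 / 4 : ℝ) • x₁‖ + ‖(1 / 2 : ℝ) • x₂‖ := norm_add_le _ _
        _ ≤ 1 := by
          rw [norm_smul, norm_smul]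
          norm_num
          linarith
  have hne : f (w + (1 / 2 : ℝ) • x₁) + f (w + x₂) ≠ 0 := by
    intro h
    rw [h, norm_zero] at hsum
    norm_num at hsum
  obtain ⟨θ, hθ1, hθ2⟩ := exists_dual_vector ℝ _ (norm_ne_zero_iff.mpr hne)
  have hle : ∀ u : Y, θ u ≤ ‖u‖ := fun u =>
    (le_abs_self _).trans ((θ.le_opNorm u).trans_eq (by rw [hθ1, one_mul]))
  have hval : θ (f (w + (1 / 2 : ℝ) • x₁)) + θ (f (w + x₂)) = 2 := by
    have := hθ2
    rw [map_add, hsum] at this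
    exact_mod_cast this
  have ha1 := hle (f w)
  have ha2 := hle (f (w + x₁))
  have ha3 := hle (f (w + x₂))
  have ha4 := hle (f (w + (1 / 2 : ℝ) • x₁))
  rw [hW] at ha1
  rw [hp] at ha2
  rw [hq] at ha3
  rw [hh] at ha4
  have hval2 : θ (f (w + (1 / 2 : ℝ) • x₁)) =
      (1 / 2) * θ (f w) + (1 / 2) * θ (f (w + x₁)) := by
    rw [hf3, hf1]
    have e : f w + (1 / 2 : ℝ) • rad f x₁ =
        (1 / 2 : ℝ) • f w + (1 / 2 : ℝ) • (f w + rad f x₁) := by module
    rw [e]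
    simp only [map_add, map_smul, smul_eq_mul]
  have hmid : f w + m = (1 / 2 : ℝ) • f (w + x₁) + (1 / 2 : ℝ) • f (w + x₂) := by
    rw [hf1, hf2, hm]
    module
  have hθm : θ (f w + m) = 1 := by
    rw [hmid]
    simp only [map_add, map_smul, smul_eq_mul]
    linarith
  have hnm : ‖f w + m‖ = 1 := by
    apply le_antisymm
    · rw [hmid]
      calc _ ≤ ‖(1 / 2 : ℝ) • f (w + x₁)‖ + ‖(1 / 2 : ℝ) • f (w + x₂)‖ := norm_add_le _ _
        _ = 1 := by
          rw [norm_smul, norm_smul, hp, hq]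
          norm_num
    · have := hle (f w + m)
      linarith
  have hn2 : ‖f w + m + f w‖ = 2 := by
    apply le_antisymm
    · calc _ ≤ ‖f w + m‖ + ‖f w‖ := norm_add_le _ _
        _ = 2 := by rw [hnm, hW]; norm_num
    · have := hle (f w + m + f w)
      rw [map_add, hθm] at this
      linarith
  set z := g (f w + m) with hzdef
  have hz := hg1 _ hnm
  have hfz : f z = f w + m := hg2 _ hnm
  have hzw : ‖z + w‖ = 2 := by
    rw [← norm_f_add hf hz hw, hfz]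
    exact hn2
  have hmem := B.face z hz hzw
  have hzeq : w + (z - w) = z := by abel
  have hnξ : ‖z - w‖ ≤ 1 := by
    have h := B.orth _ hmem
    rw [hzeq, hz] at h
    rw [h]
    exact le_max_right _ _
  refine ⟨z - w, hmem, ?_⟩
  have h := f_eq hf hg1 hg2 B hmem hnξ
  rw [hzeq, hfz] at h
  exact add_left_cancel h

theorem rad_add_mem (hf : IsSphereIso f) (hg1 : ∀ y : Y, ‖y‖ = 1 → ‖g y‖ = 1)
    (hg2 : ∀ y : Y, ‖y‖ = 1 → f (g y) = y) (B : IsBallFace w J) {x x' : X} (hx : x ∈ J)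
    (hx' : x' ∈ J) : ∃ ξ ∈ J, rad f x + rad f x' = rad f ξ := by
  set s : ℝ := (1 + ‖x‖ + ‖x'‖)⁻¹ with hs
  have h0 : 0 < s := by positivity
  obtain ⟨h1, h2⟩ := scale_bound x x'
  obtain ⟨ξ, hξJ, hξ⟩ := rad_mid hf hg1 hg2 B (J.smul_mem s hx) (J.smul_mem s hx') h1 h2
  refine ⟨(2 * s⁻¹) • ξ, J.smul_mem _ hξJ, ?_⟩
  rw [rad_smul hf, ← hξ, rad_smul hf, rad_smul hf, smul_smul]
  have e : (2 * s⁻¹ * (1 / 2)) • (s • rad f x + s • rad f x') =
      (s⁻¹ * s) • (rad f x + rad f x') := by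
    have : 2 * s⁻¹ * (1 / 2) * s = s⁻¹ * s := by ring
    rw [smul_add, smul_smul, smul_smul, smul_add, this]
  rw [e, inv_mul_cancel₀ h0.ne', one_smul]

/-- **The radial extension is additive on the subspace of a ball face.** -/
theorem rad_add (hf : IsSphereIso f) (hg1 : ∀ y : Y, ‖y‖ = 1 → ‖g y‖ = 1)
    (hg2 : ∀ y : Y, ‖y‖ = 1 → f (g y) = y) (B : IsBallFace w J) {x x' : X} (hx : x ∈ J)
    (hx' : x' ∈ J) : rad f (x + x') = rad f x + rad f x' := by
  let H : Submodule ℝ Y :=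
    { carrier := {y | ∃ a ∈ J, y = rad f a}
      add_mem' := by
        rintro _ _ ⟨a, ha, rfl⟩ ⟨b, hb, rfl⟩
        obtain ⟨ξ, hξ, e⟩ := rad_add_mem hf hg1 hg2 B ha hb
        exact ⟨ξ, hξ, e⟩
      zero_mem' := ⟨0, J.zero_mem, (rad_zero f).symm⟩
      smul_mem' := by
        rintro c _ ⟨a, ha, rfl⟩
        exact ⟨c • a, J.smul_mem c ha, (rad_smul hf c a).symm⟩ }
  let F : J → H := fun a => ⟨rad f a, ⟨a, a.2, rfl⟩⟩
  have hFiso : Isometry F := by
    refine Isometry.of_dist_eq fun a b => ?_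
    rw [Subtype.dist_eq, Subtype.dist_eq, dist_eq_norm, dist_eq_norm]
    exact rad_iso hf hg1 hg2 B a.2 b.2
  have hFsurj : Function.Surjective F := by
    rintro ⟨_, ⟨a, ha, rfl⟩⟩
    exact ⟨⟨a, ha⟩, rfl⟩
  let e : J ≃ᵢ H := IsometryEquiv.mk (Equiv.ofBijective F ⟨hFiso.injective, hFsurj⟩) hFiso
  have h0 : e 0 = 0 := by
    apply Subtype.ext
    show rad f ((0 : J) : X) = 0
    exact rad_zero f
  let L := e.toRealLinearIsometryEquivOfMapZero h0
  have hL : ∀ a : J, ((L a : H) : Y) = rad f (a : X) := fun a => rfl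
  have h3 : L (⟨x, hx⟩ + ⟨x', hx'⟩) = L ⟨x, hx⟩ + L ⟨x', hx'⟩ := L.map_add _ _
  have h2 : ((L (⟨x, hx⟩ + ⟨x', hx'⟩) : H) : Y) = ((L ⟨x, hx⟩ + L ⟨x', hx'⟩ : H) : Y) :=
    congrArg Subtype.val h3
  rw [Submodule.coe_add, hL, hL, hL] at h2
  exact h2

/-- Additivity on the whole space. -/
theorem rad_add_of_hasBallFaces (hD : HasBallFaces X) (hf : IsSphereIso f)
    (hg1 : ∀ y : Y, ‖y‖ = 1 → ‖g y‖ = 1) (hg2 : ∀ y : Y, ‖y‖ = 1 → f (g y) = y) (x₁ x₂ : X) :
    rad f (x₁ + x₂) = rad f x₁ + rad f x₂ := by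
  have hsmall : ∀ ε : ℝ, 0 < ε → ‖rad f (x₁ + x₂) - (rad f x₁ + rad f x₂)‖ ≤ 12 * ε := by
    intro ε hε
    obtain ⟨w, J, B, ⟨a, ha, hxa⟩, ⟨b, hb, hxb⟩⟩ := hD x₁ x₂ ε hε
    have hadd := rad_add hf hg1 hg2 B ha hb
    have e : rad f (x₁ + x₂) - (rad f x₁ + rad f x₂) =
        (rad f (x₁ + x₂) - rad f (a + b)) - (rad f x₁ - rad f a) - (rad f x₂ - rad f b) := by
      rw [hadd]; abel
    rw [e]
    have h1 := rad_lip hf (x₁ + x₂) (a + b)
    have h2 := rad_lip hf x₁ a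
    have h3 := rad_lip hf x₂ b
    have h4 : ‖x₁ + x₂ - (a + b)‖ ≤ ‖x₁ - a‖ + ‖x₂ - b‖ := by
      have : x₁ + x₂ - (a + b) = (x₁ - a) + (x₂ - b) := by abel
      rw [this]
      exact norm_add_le _ _
    calc _ ≤ ‖rad f (x₁ + x₂) - rad f (a + b) - (rad f x₁ - rad f a)‖ + ‖rad f x₂ - rad f b‖ :=
          norm_sub_le _ _
      _ ≤ ‖rad f (x₁ + x₂) - rad f (a + b)‖ + ‖rad f x₁ - rad f a‖ + ‖rad f x₂ - rad f b‖ := by
          gcongr
          exact norm_sub_le _ _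
      _ ≤ 12 * ε := by linarith
  have h0 : ‖rad f (x₁ + x₂) - (rad f x₁ + rad f x₂)‖ = 0 := by
    apply le_antisymm _ (norm_nonneg _)
    apply le_of_forall_pos_le_add
    intro ε hε
    have := hsmall (ε / 12) (by positivity)
    linarith
  exact sub_eq_zero.mp (norm_eq_zero.mp h0)

/-- The linear isometry, total functions. -/
theorem exists_linear_of_hasBallFaces (hD : HasBallFaces X) (hf : IsSphereIso f) :
    ∃ T : X ≃ₗᵢ[ℝ] Y, ∀ x : X, ‖x‖ = 1 → T x = f x := by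
  obtain ⟨g, hg⟩ := hf.exists_inv
  have hg1 : ∀ y : Y, ‖y‖ = 1 → ‖g y‖ = 1 := fun y hy => (hg y hy).1
  have hg2 : ∀ y : Y, ‖y‖ = 1 → f (g y) = y := fun y hy => (hg y hy).2
  let T0 : X →ₗ[ℝ] Y :=
    { toFun := rad f
      map_add' := rad_add_of_hasBallFaces hD hf hg1 hg2
      map_smul' := fun c x => rad_smul hf c x }
  have hT0 : ∀ x, T0 x = rad f x := fun _ => rfl
  let T1 : X →ₗᵢ[ℝ] Y := ⟨T0, fun x => rad_norm hf x⟩
  have hsurj : Function.Surjective T1 := by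
    intro y
    by_cases h0 : y = 0
    · exact ⟨0, by simp [h0]⟩
    obtain ⟨p, hp, hfp⟩ := hf.surj _ (norm_inv_smul h0)
    refine ⟨‖y‖ • p, ?_⟩
    show T0 (‖y‖ • p) = y
    rw [map_smul, hT0, rad_unit f hp, hfp, smul_smul, mul_inv_cancel₀ (norm_ne_zero_iff.mpr h0),
      one_smul]
  exact ⟨LinearIsometryEquiv.ofSurjective T1 hsurj, fun x hx => rad_unit f hx⟩

end

universe u v

variable {X' : Type u} {Y' : Type v} [NormedAddCommGroup X'] [NormedSpace ℝ X']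
  [NormedAddCommGroup Y'] [NormedSpace ℝ Y']

/-- From maps of the unit spheres to ambient maps. -/
theorem exists_ambient (f : sphere (0 : X') 1 → sphere (0 : Y') 1) (hf : Isometry f)
    (hs : Function.Surjective f) :
    ∃ g : X' → Y', IsSphereIso g ∧ ∀ x : sphere (0 : X') 1, g x = f x := by
  classical
  have hmemX : ∀ a : X', ‖a‖ = 1 → a ∈ sphere (0 : X') 1 := fun a ha => by simp [ha]
  have hmemY : ∀ y : Y', ‖y‖ = 1 → y ∈ sphere (0 : Y') 1 := fun y hy => by simp [hy]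
  have hnormX : ∀ a : sphere (0 : X') 1, ‖(a : X')‖ = 1 := fun a => by simpa using a.2
  have hnormY : ∀ y : sphere (0 : Y') 1, ‖(y : Y')‖ = 1 := fun y => by simpa using y.2
  set g : X' → Y' := fun a => if h : ‖a‖ = 1 then (f ⟨a, hmemX a h⟩ : Y') else 0 with hg
  have hgv : ∀ a (h : ‖a‖ = 1), g a = f ⟨a, hmemX a h⟩ := fun a h => by simp [hg, h]
  have hfdist : ∀ a b : sphere (0 : X') 1, ‖(f a : Y') - f b‖ = ‖(a : X') - b‖ := by
    intro a b
    have := hf.dist_eq a b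
    simpa [Subtype.dist_eq, dist_eq_norm] using this
  refine ⟨g, ⟨fun a ha => ?_, fun a b ha hb => ?_, fun y hy => ?_⟩, fun x => ?_⟩
  · rw [hgv a ha]; exact hnormY _
  · rw [hgv a ha, hgv b hb, hfdist]
  · obtain ⟨a, ha⟩ := hs ⟨y, hmemY y hy⟩
    refine ⟨a, hnormX a, ?_⟩
    rw [hgv a (hnormX a)]
    simp [ha]
  · rw [hgv x (hnormX x)]

/-- **Extension, ball faces in the source.** -/
theorem extends_of_hasBallFaces_source (hD : HasBallFaces X')
    (f : sphere (0 : X') 1 → sphere (0 : Y') 1) (hf : Isometry f) (hs : Function.Surjective f) :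
    ∃ T : X' ≃ₗᵢ[ℝ] Y', ∀ x : sphere (0 : X') 1, T x = f x := by
  obtain ⟨g, hg, hgf⟩ := exists_ambient f hf hs
  obtain ⟨T, hT⟩ := exists_linear_of_hasBallFaces hD hg
  refine ⟨T, fun x => ?_⟩
  rw [hT x (by simpa using x.2), hgf]

/-- **Extension, ball faces in the target.** -/
theorem extends_of_hasBallFaces_target (hD : HasBallFaces Y')
    (f : sphere (0 : X') 1 → sphere (0 : Y') 1) (hf : Isometry f) (hs : Function.Surjective f) :
    ∃ T : X' ≃ₗᵢ[ℝ] Y', ∀ x : sphere (0 : X') 1, T x = f x := by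
  obtain ⟨g, hg, hgf⟩ := exists_ambient f hf hs
  obtain ⟨h, hh⟩ := hg.exists_inv
  have hH : IsSphereIso h := by
    refine ⟨fun y hy => (hh y hy).1, fun y y' hy hy' => ?_, fun x hx => ⟨g x, hg.norm_eq x hx, ?_⟩⟩
    · rw [← hg.iso _ _ (hh y hy).1 (hh y' hy').1, (hh y hy).2, (hh y' hy').2]
    · have hy := hg.norm_eq x hx
      have h2 := hg.iso _ _ (hh (g x) hy).1 hx
      rw [(hh (g x) hy).2, sub_self, norm_zero] at h2
      exact sub_eq_zero.mp (norm_eq_zero.mp h2.symm)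
  obtain ⟨T, hT⟩ := exists_linear_of_hasBallFaces hD hH
  refine ⟨T.symm, fun x => ?_⟩
  have hx : ‖(x : X')‖ = 1 := by simpa using x.2
  have hy := hg.norm_eq _ hx
  have h3 := hT (g x) hy
  rw [LinearIsometryEquiv.symm_apply_eq, ← hgf, h3]
  have h2 := hg.iso _ _ (hh (g x) hy).1 hx
  rw [(hh (g x) hy).2, sub_self, norm_zero] at h2
  exact (sub_eq_zero.mp (norm_eq_zero.mp h2.symm)).symm

end Vale.Agent.Lib.P084.BallFace
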