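/-
Compact operators between infinite dimensional Hilbert spaces have ball faces (helper82).

Let `w` be the rank one operator `v ↦ ⟪ξ, v⟫ • η`, with `ξ`, `η` unit, and `J` the compact operators `x`
with `x ξ = 0` and `⟪η, x v⟫ = 0` for all `v`.  By Pythagoras `‖w + x‖ = max 1 ‖x‖` for `x` in `J`; if `z` is
a compact operator of norm one with `‖z + w‖ = 2` then `z ξ = η` (parallelogram identity at near-maximisers
of `z + w`) and the adjoint of `z` sends `η` to `ξ`, so `z - w` is in `J`.  Operators of finite rank are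
dense and any two of them lie in one `J`.
-/
import Vale.Agent.Lib.P084.BallFace.Main
import Mathlib.Analysis.InnerProductSpace.Adjoint
import Mathlib.Analysis.Normed.Operator.Compact.Basic
import Mathlib.Analysis.InnerProductSpace.Projection.Submodule

namespace Vale.Agent.Lib.P084.BallFace

open Metric RCLike

variable (𝕜 : Type*) [RCLike 𝕜] {H₁ H₂ : Type*} [NormedAddCommGroup H₁] [InnerProductSpace 𝕜 H₁]
  [NormedAddCommGroup H₂] [InnerProductSpace 𝕜 H₂]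

/-- The rank one operator `v ↦ ⟪ξ, v⟫ • η`. -/
noncomputable def rk (ξ : H₁) (η : H₂) : H₁ →L[𝕜] H₂ := (innerSL 𝕜 ξ).smulRight η

variable {𝕜}

theorem rk_apply (ξ v : H₁) (η : H₂) : rk 𝕜 ξ η v = inner 𝕜 ξ v • η := rfl

theorem inner_self_unit {ξ : H₁} (hξ : ‖ξ‖ = 1) : inner 𝕜 ξ ξ = 1 := by
  rw [inner_self_eq_norm_sq_to_K, hξ]
  simp

theorem inner_sub_smul {ξ : H₁} (hξ : ‖ξ‖ = 1) (v : H₁) : inner 𝕜 ξ (v - inner 𝕜 ξ v • ξ) = 0 := by
  rw [inner_sub_right, inner_smul_right, inner_self_unit hξ, mul_one, sub_self]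

theorem rk_sub_smul {ξ : H₁} (hξ : ‖ξ‖ = 1) (η : H₂) (v : H₁) :
    rk 𝕜 ξ η (v - inner 𝕜 ξ v • ξ) = 0 := by
  rw [rk_apply, inner_sub_smul hξ, zero_smul]

/-- Pythagoras for the splitting along a unit vector. -/
theorem norm_sq_split {ξ : H₁} (hξ : ‖ξ‖ = 1) (v : H₁) :
    ‖v‖ ^ 2 = ‖inner 𝕜 ξ v‖ ^ 2 + ‖v - inner 𝕜 ξ v • ξ‖ ^ 2 := by
  have h := norm_add_sq_eq_norm_sq_add_norm_sq_of_inner_eq_zero (𝕜 := 𝕜)
    (inner 𝕜 ξ v • ξ) (v - inner 𝕜 ξ v • ξ) (by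
      rw [inner_smul_left, inner_sub_smul hξ, mul_zero])
  have e : inner 𝕜 ξ v • ξ + (v - inner 𝕜 ξ v • ξ) = v := by abel
  rw [e, norm_smul, hξ, mul_one] at h
  have h2 : ‖v‖ * ‖v‖ = ‖inner 𝕜 ξ v‖ * ‖inner 𝕜 ξ v‖ +
      ‖v - inner 𝕜 ξ v • ξ‖ * ‖v - inner 𝕜 ξ v • ξ‖ := h
  nlinarith

theorem le_of_sq_aux {a b : ℝ} (h : a ^ 2 ≤ b ^ 2) (hb : 0 ≤ b) : a ≤ b := by
  by_contra hc
  push_neg at hc
  nlinarith

section Op

variable {ξ : H₁} {η : H₂} {x z : H₁ →L[𝕜] H₂}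

theorem norm_rk_add (hξ : ‖ξ‖ = 1) (hη : ‖η‖ = 1) (hx : x ξ = 0)
    (hx' : ∀ v, inner 𝕜 η (x v) = 0) : ‖rk 𝕜 ξ η + x‖ = max 1 ‖x‖ := by
  have hsplit : ∀ v, x v = x (v - inner 𝕜 ξ v • ξ) := fun v => by
    rw [map_sub, map_smul, hx, smul_zero, sub_zero]
  apply le_antisymm
  · refine ContinuousLinearMap.opNorm_le_bound _ (le_max_of_le_left zero_le_one) fun v => ?_
    set m := max 1 ‖x‖ with hm
    have hm1 : 1 ≤ m := le_max_left _ _
    have hm2 : ‖x‖ ≤ m := le_max_right _ _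
    set c := inner 𝕜 ξ v with hc
    set v' := v - c • ξ with hv'
    have h1 : (rk 𝕜 ξ η + x) v = c • η + x v' := by
      rw [ContinuousLinearMap.add_apply, rk_apply, ← hc, hsplit v]
    have h2 : ‖c • η + x v'‖ ^ 2 = ‖c‖ ^ 2 + ‖x v'‖ ^ 2 := by
      have := norm_add_sq_eq_norm_sq_add_norm_sq_of_inner_eq_zero (𝕜 := 𝕜) (c • η) (x v') (by
        rw [inner_smul_left, hx', mul_zero])
      rw [norm_smul, hη, mul_one] at this
      nlinarith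
    have h3 : ‖v‖ ^ 2 = ‖c‖ ^ 2 + ‖v'‖ ^ 2 := norm_sq_split hξ v
    have h4 : ‖x v'‖ ≤ m * ‖v'‖ :=
      (x.le_opNorm v').trans (mul_le_mul_of_nonneg_right hm2 (norm_nonneg _))
    have h5 : ‖x v'‖ ^ 2 ≤ m ^ 2 * ‖v'‖ ^ 2 := by
      have := pow_le_pow_left₀ (norm_nonneg _) h4 2
      rwa [mul_pow] at this
    have h6 : ‖c‖ ^ 2 ≤ m ^ 2 * ‖c‖ ^ 2 := by
      have : (1 : ℝ) ≤ m ^ 2 := by nlinarith
      nlinarith [sq_nonneg ‖c‖]
    rw [h1]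
    refine le_of_sq_aux ?_ (mul_nonneg (by linarith) (norm_nonneg v))
    rw [h2, mul_pow, h3]
    nlinarith
  · apply max_le
    · have h := (rk 𝕜 ξ η + x).le_opNorm ξ
      rw [ContinuousLinearMap.add_apply, rk_apply, inner_self_unit hξ, one_smul, hx, add_zero, hη,
        hξ, mul_one] at h
      exact h
    · refine ContinuousLinearMap.opNorm_le_bound _ (norm_nonneg _) fun v => ?_
      rw [hsplit v]
      have e : x (v - inner 𝕜 ξ v • ξ) = (rk 𝕜 ξ η + x) (v - inner 𝕜 ξ v • ξ) := by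
        rw [ContinuousLinearMap.add_apply, rk_sub_smul hξ, zero_add]
      rw [e]
      refine ((rk 𝕜 ξ η + x).le_opNorm _).trans ?_
      refine mul_le_mul_of_nonneg_left ?_ (norm_nonneg _)
      have h3 := norm_sq_split (𝕜 := 𝕜) hξ v
      have : ‖v - inner 𝕜 ξ v • ξ‖ ^ 2 ≤ ‖v‖ ^ 2 := by nlinarith [sq_nonneg ‖inner 𝕜 ξ v‖]
      exact le_of_sq_aux this (norm_nonneg _)

theorem norm_rk (hξ : ‖ξ‖ = 1) (hη : ‖η‖ = 1) : ‖rk 𝕜 ξ η‖ = 1 := by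
  have h := norm_rk_add (x := (0 : H₁ →L[𝕜] H₂)) hξ hη (by simp) (by simp)
  simpa using h

/-- The real computation behind the next lemma. -/
theorem real_aux {ρ N D A C V V' : ℝ} (hρ : 0 < ρ) (hρ2 : ρ ≤ 1 / 2) (hN : 2 - ρ ^ 2 / 8 < N)
    (hpar : N ^ 2 + D ^ 2 = 2 * (A ^ 2 + C ^ 2)) (hA0 : 0 ≤ A) (hA : A ≤ 1) (hC0 : 0 ≤ C)
    (hC : C ≤ 1) (hV0 : 0 ≤ V) (hV : V ≤ 1) (hsp : V ^ 2 = C ^ 2 + V' ^ 2) :
    D ≤ ρ ∧ V' ≤ ρ ∧ 1 / 2 ≤ C := by
  have hρ3 : ρ ^ 2 ≤ 1 / 4 := by nlinarith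
  have hρ4 : 0 < ρ ^ 2 := by positivity
  have hN0 : 0 < 2 - ρ ^ 2 / 8 := by linarith
  have hN2 : 4 - ρ ^ 2 / 2 < N ^ 2 := by nlinarith
  have hA2 : A ^ 2 ≤ 1 := by nlinarith
  have hC2 : C ^ 2 ≤ 1 := by nlinarith
  have hV2 : V ^ 2 ≤ 1 := by nlinarith
  have hD2 : D ^ 2 ≤ ρ ^ 2 := by linarith
  have hD02 : 0 ≤ D ^ 2 := sq_nonneg D
  have hCl : 1 - ρ ^ 2 / 4 < C ^ 2 := by linarith
  refine ⟨le_of_sq_aux hD2 hρ.le, le_of_sq_aux (by linarith) hρ.le, ?_⟩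
  by_contra hcon
  push_neg at hcon
  nlinarith

/-- If `‖z‖ ≤ 1` and `‖z + w‖ = 2` then `z ξ = η`. -/
theorem apply_eq_of_norm_add (hξ : ‖ξ‖ = 1) (hη : ‖η‖ = 1) (hz : ‖z‖ ≤ 1)
    (hsum : ‖z + rk 𝕜 ξ η‖ = 2) : z ξ = η := by
  have key : ∀ ρ : ℝ, 0 < ρ → ρ ≤ 1 / 2 → ‖z ξ - η‖ ≤ 4 * ρ := by
    intro ρ hρ hρ2
    have hlt : 2 - ρ ^ 2 / 8 < ‖z + rk 𝕜 ξ η‖ := by
      rw [hsum]
      have : 0 < ρ ^ 2 := by positivity
      linarith
    obtain ⟨v, hv1, hv2⟩ := ContinuousLinearMap.exists_lt_apply_of_lt_opNorm _ hlt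
    have hvle : ‖v‖ ≤ 1 := hv1.le
    have hsp := norm_sq_split (𝕜 := 𝕜) hξ v
    have hcle : ‖inner 𝕜 ξ v‖ ≤ 1 := by
      refine (norm_inner_le_norm _ _).trans ?_
      rw [hξ, one_mul]
      exact hvle
    have hwv : rk 𝕜 ξ η v = inner 𝕜 ξ v • η := rk_apply _ _ _
    have hzv : ‖z v‖ ≤ 1 := by
      refine (z.le_opNorm v).trans ?_
      calc ‖z‖ * ‖v‖ ≤ 1 * 1 := mul_le_mul hz hvle (norm_nonneg _) zero_le_one
        _ = 1 := one_mul 1
    have hb : ‖rk 𝕜 ξ η v‖ = ‖inner 𝕜 ξ v‖ := by rw [hwv, norm_smul, hη, mul_one]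
    have hpar := parallelogram_law_with_norm 𝕜 (z v) (rk 𝕜 ξ η v)
    have hadd : ‖z v + rk 𝕜 ξ η v‖ = ‖(z + rk 𝕜 ξ η) v‖ := rfl
    rw [hadd, hb] at hpar
    obtain ⟨hDle, hv'le, hchalf⟩ := real_aux (D := ‖z v - rk 𝕜 ξ η v‖) hρ hρ2 hv2
      hpar (norm_nonneg (z v)) hzv (norm_nonneg _) hcle (norm_nonneg v) hvle hsp
    have hzv' : ‖z (v - inner 𝕜 ξ v • ξ)‖ ≤ ρ := by
      refine (z.le_opNorm _).trans ?_
      calc _ ≤ 1 * ρ := mul_le_mul hz hv'le (norm_nonneg _) zero_le_one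
        _ = ρ := one_mul ρ
    have hdecomp : inner 𝕜 ξ v • (z ξ - η) =
        (z v - rk 𝕜 ξ η v) - z (v - inner 𝕜 ξ v • ξ) := by
      rw [hwv, map_sub, map_smul, smul_sub]
      abel
    have hbound : ‖inner 𝕜 ξ v‖ * ‖z ξ - η‖ ≤ 2 * ρ := by
      rw [← norm_smul, hdecomp]
      refine (norm_sub_le _ _).trans ?_
      linarith
    have h5 : (1 / 2) * ‖z ξ - η‖ ≤ ‖inner 𝕜 ξ v‖ * ‖z ξ - η‖ :=
      mul_le_mul_of_nonneg_right hchalf (norm_nonneg _)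
    linarith
  have h0 : ‖z ξ - η‖ ≤ 0 := by
    apply le_of_forall_pos_le_add
    intro ε hε
    have h1 := key (min (ε / 4) (1 / 2)) (lt_min (by positivity) (by norm_num)) (min_le_right _ _)
    have h2 : 4 * min (ε / 4) (1 / 2) ≤ ε := by
      have := min_le_left (ε / 4) (1 / 2 : ℝ)
      linarith
    linarith
  exact sub_eq_zero.mp (norm_le_zero_iff.mp h0)

/-- The adjoint half. -/
theorem inner_apply_eq [CompleteSpace H₁] [CompleteSpace H₂] (hξ : ‖ξ‖ = 1) (hη : ‖η‖ = 1)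
    (hz : ‖z‖ ≤ 1) (hzξ : z ξ = η) (v : H₁) : inner 𝕜 η (z v) = inner 𝕜 ξ v := by
  set a := ContinuousLinearMap.adjoint z η with ha
  have h1 : ∀ v, inner 𝕜 η (z v) = inner 𝕜 a v := fun v => by
    rw [ha, ContinuousLinearMap.adjoint_inner_left]
  have h2 : inner 𝕜 a ξ = 1 := by
    rw [← h1, hzξ, inner_self_unit hη]
  have h3 : ‖a‖ ≤ 1 := by
    have h5 := (ContinuousLinearMap.adjoint z).le_opNorm η
    rw [LinearIsometryEquiv.norm_map, hη, mul_one] at h5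
    exact h5.trans hz
  have h4 : a = ξ := by
    have := @norm_sub_sq 𝕜 _ _ _ _ a ξ
    rw [h2, hξ, RCLike.one_re] at this
    have h5 : ‖a - ξ‖ ^ 2 ≤ 0 := by
      rw [this]
      nlinarith [norm_nonneg a]
    have h6 : ‖a - ξ‖ = 0 := by
      nlinarith [norm_nonneg (a - ξ)]
    exact sub_eq_zero.mp (norm_eq_zero.mp h6)
  rw [h1, h4]

end Op

section Kop

/-- Rank one operators are compact. -/
theorem rk_mem (ξ : H₁) (η : H₂) : rk 𝕜 ξ η ∈ compactOperator (RingHom.id 𝕜) H₁ H₂ := by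
  have h : IsCompactOperator (innerSL 𝕜 ξ) := isCompactOperator_of_locallyCompactSpace_dom _
  let L : 𝕜 →L[𝕜] H₂ := (ContinuousLinearMap.id 𝕜 𝕜).smulRight η
  have h2 : IsCompactOperator (L ∘ (innerSL 𝕜 ξ)) := h.clm_comp L
  have e : (rk 𝕜 ξ η : H₁ → H₂) = L ∘ (innerSL 𝕜 ξ) := by
    funext v
    simp [rk, L]
  show IsCompactOperator (rk 𝕜 ξ η : H₁ → H₂)
  rw [e]
  exact h2

/-- Finite dimensional approximation of a compact operator. -/
theorem exists_approx [CompleteSpace H₂] (T : H₁ →L[𝕜] H₂) (hT : IsCompactOperator T) {ε : ℝ}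
    (hε : 0 < ε) : ∃ (V : Submodule 𝕜 H₂) (S : H₁ →L[𝕜] H₂), FiniteDimensional 𝕜 V ∧
      (∀ v, S v ∈ V) ∧ IsCompactOperator S ∧ ‖T - S‖ ≤ ε := by
  have hc : IsCompact (closure (T '' closedBall 0 1)) :=
    hT.isCompact_closure_image_closedBall 1
  obtain ⟨t, _, htf, hcov⟩ := hc.finite_cover_balls hε
  let V : Submodule 𝕜 H₂ := Submodule.span 𝕜 t
  haveI hfd : FiniteDimensional 𝕜 V := FiniteDimensional.span_of_finite 𝕜 htf
  haveI : CompleteSpace V := FiniteDimensional.complete 𝕜 V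
  refine ⟨V, V.starProjection.comp T, hfd, fun v => ?_, ?_, ?_⟩
  · exact Submodule.starProjection_apply_mem V (T v)
  · exact hT.clm_comp V.starProjection
  · by_contra hcon
    push_neg at hcon
    obtain ⟨v, hv1, hv2⟩ := ContinuousLinearMap.exists_lt_apply_of_lt_opNorm _ hcon
    have hmem : T v ∈ closure (T '' closedBall 0 1) :=
      subset_closure ⟨v, by simpa using hv1.le, rfl⟩
    obtain ⟨y, hy, hyb⟩ := Set.mem_iUnion₂.mp (hcov hmem)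
    have hyV : y ∈ V := Submodule.subset_span hy
    have hmin := Submodule.starProjection_minimal (U := V) (T v)
    have hle : ‖T v - V.starProjection (T v)‖ ≤ ‖T v - y‖ := by
      rw [hmin]
      exact ciInf_le ⟨0, by rintro _ ⟨x, rfl⟩; exact norm_nonneg _⟩ (⟨y, hyV⟩ : V)
    have hlt : ‖T v - y‖ < ε := by
      simpa [dist_eq_norm] using hyb
    have e : (T - V.starProjection.comp T) v = T v - V.starProjection (T v) := rfl
    rw [e] at hv2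
    linarith

theorem exists_unit_ker (h₁ : ¬ FiniteDimensional 𝕜 H₁) {V₁ V₂ : Submodule 𝕜 H₂}
    (hV₁ : FiniteDimensional 𝕜 V₁) (hV₂ : FiniteDimensional 𝕜 V₂) (S₁ S₂ : H₁ →L[𝕜] H₂)
    (hS₁ : ∀ v, S₁ v ∈ V₁) (hS₂ : ∀ v, S₂ v ∈ V₂) :
    ∃ ξ : H₁, ‖ξ‖ = 1 ∧ S₁ ξ = 0 ∧ S₂ ξ = 0 := by
  by_contra hcon
  push_neg at hcon
  let L : H₁ →ₗ[𝕜] V₁ × V₂ := LinearMap.prod (S₁.toLinearMap.codRestrict V₁ hS₁)
    (S₂.toLinearMap.codRestrict V₂ hS₂)
  have hinj : Function.Injective L := by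
    rw [← LinearMap.ker_eq_bot, LinearMap.ker_eq_bot']
    intro v hv
    by_contra hne
    have h1 : S₁ v = 0 := by
      have := congrArg (fun p : V₁ × V₂ => ((p.1 : V₁) : H₂)) hv
      simpa [L] using this
    have h2 : S₂ v = 0 := by
      have := congrArg (fun p : V₁ × V₂ => ((p.2 : V₂) : H₂)) hv
      simpa [L] using this
    have hu : ‖((‖v‖ : 𝕜))⁻¹ • v‖ = 1 := norm_smul_inv_norm hne
    refine hcon _ hu ?_ ?_
    · rw [map_smul, h1, smul_zero]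
    · rw [map_smul, h2, smul_zero]
  exact h₁ (FiniteDimensional.of_injective L hinj)

theorem exists_unit_orth [CompleteSpace H₂] (h₂ : ¬ FiniteDimensional 𝕜 H₂) {V₁ V₂ : Submodule 𝕜 H₂}
    (hV₁ : FiniteDimensional 𝕜 V₁) (hV₂ : FiniteDimensional 𝕜 V₂) :
    ∃ η : H₂, ‖η‖ = 1 ∧ (∀ u ∈ V₁, inner 𝕜 η u = 0) ∧ (∀ u ∈ V₂, inner 𝕜 η u = 0) := by
  let V : Submodule 𝕜 H₂ := V₁ ⊔ V₂
  haveI hfd : FiniteDimensional 𝕜 V := Submodule.finiteDimensional_sup V₁ V₂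
  haveI : CompleteSpace V := FiniteDimensional.complete 𝕜 V
  have hne : V ≠ ⊤ := by
    intro h
    apply h₂
    haveI : FiniteDimensional 𝕜 (⊤ : Submodule 𝕜 H₂) := h ▸ hfd
    exact Module.Finite.equiv (Submodule.topEquiv (R := 𝕜) (M := H₂))
  have hort : Vᗮ ≠ ⊥ := fun h => hne (Submodule.orthogonal_eq_bot_iff.mp h)
  obtain ⟨η₀, hη₀, hη₀ne⟩ := Submodule.exists_mem_ne_zero_of_ne_bot hort
  have hmem : ((‖η₀‖ : 𝕜))⁻¹ • η₀ ∈ Vᗮ := Submodule.smul_mem _ _ hη₀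
  refine ⟨((‖η₀‖ : 𝕜))⁻¹ • η₀, norm_smul_inv_norm hη₀ne, fun u hu => ?_, fun u hu => ?_⟩
  · exact Submodule.inner_left_of_mem_orthogonal (Submodule.mem_sup_left hu) hmem
  · exact Submodule.inner_left_of_mem_orthogonal (Submodule.mem_sup_right hu) hmem

/-- A real normed space modelled on the compact operators between two inner product spaces over `𝕜`. -/
structure IsCompactModel {K : Type*} [NormedAddCommGroup K] [NormedSpace ℝ K]
    (ι : K → (H₁ →L[𝕜] H₂)) : Prop where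
  add : ∀ x y, ι (x + y) = ι x + ι y
  smul : ∀ (c : ℝ) x, ι (c • x) = (c : 𝕜) • ι x
  norm : ∀ x, ‖ι x‖ = ‖x‖
  compact : ∀ x, IsCompactOperator (ι x)
  onto : ∀ T : H₁ →L[𝕜] H₂, IsCompactOperator T → ∃ x, ι x = T

variable {K : Type*} [NormedAddCommGroup K] [NormedSpace ℝ K] {ι : K → (H₁ →L[𝕜] H₂)}

theorem IsCompactModel.zero (M : IsCompactModel ι) : ι 0 = 0 := by
  have h := M.smul 0 0
  rw [smul_zero] at h
  rw [h]
  simp

theorem IsCompactModel.sub (M : IsCompactModel ι) (x y : K) : ι (x - y) = ι x - ι y := by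
  have e : x - y = x + (-1 : ℝ) • y := by
    rw [neg_one_smul, sub_eq_add_neg]
  rw [e, M.add, M.smul, sub_eq_add_neg]
  simp

/-- The elements orthogonal to the rank one operator. -/
def orthSub (M : IsCompactModel ι) (ξ : H₁) (η : H₂) : Submodule ℝ K where
  carrier := {x | ι x ξ = 0 ∧ ∀ v, inner 𝕜 η (ι x v) = 0}
  add_mem' := by
    rintro a b ⟨h1, h2⟩ ⟨h3, h4⟩
    refine ⟨?_, fun v => ?_⟩
    · rw [M.add, ContinuousLinearMap.add_apply, h1, h3, add_zero]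
    · rw [M.add, ContinuousLinearMap.add_apply, inner_add_right, h2, h4, add_zero]
  zero_mem' := by
    refine ⟨by rw [M.zero]; rfl, fun v => ?_⟩
    rw [M.zero, ContinuousLinearMap.zero_apply, inner_zero_right]
  smul_mem' := by
    rintro c a ⟨h1, h2⟩
    refine ⟨?_, fun v => ?_⟩
    · rw [M.smul, ContinuousLinearMap.smul_apply, h1, smul_zero]
    · rw [M.smul, ContinuousLinearMap.smul_apply, inner_smul_right, h2, mul_zero]

theorem isBallFace_rk [CompleteSpace H₁] [CompleteSpace H₂] (M : IsCompactModel ι) {ξ : H₁} {η : H₂}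
    (hξ : ‖ξ‖ = 1) (hη : ‖η‖ = 1) {w : K} (hw : ι w = rk 𝕜 ξ η) :
    IsBallFace w (orthSub M ξ η) where
  norm_w := by rw [← M.norm, hw]; exact norm_rk hξ hη
  orth := fun x hx => by
    rw [← M.norm, ← M.norm x, M.add, hw]
    exact norm_rk_add hξ hη hx.1 hx.2
  face := fun z hz hsum => by
    have hsum' : ‖ι z + rk 𝕜 ξ η‖ = 2 := by
      rw [← hw, ← M.add, M.norm]; exact hsum
    have hz1 : ‖ι z‖ ≤ 1 := by rw [M.norm]; exact hz.le
    have h1 := apply_eq_of_norm_add hξ hη hz1 hsum'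
    refine ⟨?_, fun v => ?_⟩
    · rw [M.sub, hw, ContinuousLinearMap.sub_apply, h1, rk_apply, inner_self_unit hξ, one_smul,
        sub_self]
    · rw [M.sub, hw, ContinuousLinearMap.sub_apply, inner_sub_right,
        inner_apply_eq hξ hη hz1 h1, rk_apply, inner_smul_right, inner_self_unit hη, mul_one,
        sub_self]

/-- **A space modelled on the compact operators between infinite dimensional Hilbert spaces has ball
faces.** -/
theorem hasBallFaces_of_model [CompleteSpace H₁] [CompleteSpace H₂] (M : IsCompactModel ι)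
    (h₁ : ¬ FiniteDimensional 𝕜 H₁) (h₂ : ¬ FiniteDimensional 𝕜 H₂) : HasBallFaces K := by
  intro x₁ x₂ ε hε
  obtain ⟨V₁, S₁, hV₁, hS₁, hc₁, hn₁⟩ := exists_approx (ι x₁) (M.compact x₁) (half_pos hε)
  obtain ⟨V₂, S₂, hV₂, hS₂, hc₂, hn₂⟩ := exists_approx (ι x₂) (M.compact x₂) (half_pos hε)
  obtain ⟨ξ, hξ, hξ₁, hξ₂⟩ := exists_unit_ker h₁ hV₁ hV₂ S₁ S₂ hS₁ hS₂
  obtain ⟨η, hη, hη₁, hη₂⟩ := exists_unit_orth h₂ hV₁ hV₂
  obtain ⟨w, hw⟩ := M.onto _ (rk_mem ξ η)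
  obtain ⟨a, ha⟩ := M.onto _ hc₁
  obtain ⟨b, hb⟩ := M.onto _ hc₂
  refine ⟨w, orthSub M ξ η, isBallFace_rk M hξ hη hw,
    ⟨a, ⟨by rw [ha]; exact hξ₁, fun v => by rw [ha]; exact hη₁ _ (hS₁ v)⟩, ?_⟩,
    ⟨b, ⟨by rw [hb]; exact hξ₂, fun v => by rw [hb]; exact hη₂ _ (hS₂ v)⟩, ?_⟩⟩
  · rw [← M.norm, M.sub, ha]
    exact lt_of_le_of_lt hn₁ (half_lt_self hε)
  · rw [← M.norm, M.sub, hb]
    exact lt_of_le_of_lt hn₂ (half_lt_self hε)

end Kop

/-- Real Hilbert spaces. -/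
theorem hasBallFaces_compact_real {H₁ H₂ : Type*} [NormedAddCommGroup H₁] [InnerProductSpace ℝ H₁]
    [CompleteSpace H₁] [NormedAddCommGroup H₂] [InnerProductSpace ℝ H₂] [CompleteSpace H₂]
    (h₁ : ¬ FiniteDimensional ℝ H₁) (h₂ : ¬ FiniteDimensional ℝ H₂) :
    HasBallFaces (compactOperator (RingHom.id ℝ) H₁ H₂) := by
  refine hasBallFaces_of_model (𝕜 := ℝ) (ι := fun x => (x : H₁ →L[ℝ] H₂)) ⟨fun _ _ => rfl,
    fun _ _ => rfl, fun _ => rfl, fun x => x.2, fun T hT => ⟨⟨T, hT⟩, rfl⟩⟩ h₁ h₂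

/-- Complex Hilbert spaces; the compact operators are regarded as a real space. -/
theorem hasBallFaces_compact_complex {H₁ H₂ : Type*} [NormedAddCommGroup H₁]
    [InnerProductSpace ℂ H₁] [CompleteSpace H₁] [NormedAddCommGroup H₂] [InnerProductSpace ℂ H₂]
    [CompleteSpace H₂] (h₁ : ¬ FiniteDimensional ℂ H₁) (h₂ : ¬ FiniteDimensional ℂ H₂) :
    HasBallFaces (compactOperator (RingHom.id ℂ) H₁ H₂) := by
  refine hasBallFaces_of_model (𝕜 := ℂ) (ι := fun x => (x : H₁ →L[ℂ] H₂)) ⟨fun _ _ => rfl,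
    fun _ _ => rfl, fun _ => rfl, fun x => x.2, fun T hT => ⟨⟨T, hT⟩, rfl⟩⟩ h₁ h₂

end Vale.Agent.Lib.P084.BallFace
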